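import Vale.Agent.P207.N3.H862.JC

/-!
# P207, line N3, row R4: inverses of families of diffeomorphisms

If `f` is a family with jointly continuous derivatives, `G z` is a (right) inverse of `f z`, jointly
continuous, and the derivative of `f z` is invertible, then `G` has jointly continuous derivatives.
-/

open Set Filter Topology
open scoped ContDiff

noncomputable section

namespace Vale.Agent.P207.N3

universe v

variable {Z : Type v} [TopologicalSpace Z] {E F : Type}
  [NormedAddCommGroup E] [NormedSpace ℝ E] [NormedAddCommGroup F] [NormedSpace ℝ F]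

/-- **inverse of a family** -/
theorem JC_funInv [CompleteSpace E] {f : Z → E → F} {G : Z → F → E} {S : Set (Z × E)}
    {T : Set (Z × F)} (hf : JC f S) (hT : IsOpen T)
    (hG : ContinuousOn (fun p : Z × F => G p.1 p.2) T) (hGS : ∀ p ∈ T, (p.1, G p.1 p.2) ∈ S)
    (hfG : ∀ p ∈ T, f p.1 (G p.1 p.2) = p.2)
    (hinv : ∀ p ∈ T, (fderiv ℝ (f p.1) (G p.1 p.2)).IsInvertible) : JC G T := by
  have hder : ∀ p ∈ T, HasFDerivAt (G p.1) (fderiv ℝ (f p.1) (G p.1 p.2)).inverse p.2 := by
    rintro ⟨z, w⟩ hp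
    obtain ⟨A, hA⟩ := hinv (z, w) hp
    have h1 : HasFDerivAt (f z) (A : E →L[ℝ] F) (G z w) := by
      rw [hA]
      exact hf.hasFDerivAt (hGS (z, w) hp)
    have h2 : ContinuousAt (G z) w := by
      have h3 : ContinuousAt (fun p : Z × F => G p.1 p.2) (z, w) :=
        hG.continuousAt (hT.mem_nhds hp)
      exact ContinuousAt.comp (f := fun w : F => ((z, w) : Z × F))
        (g := fun p : Z × F => G p.1 p.2) h3 (by fun_prop)
    have h3 : ∀ᶠ y in 𝓝 w, f z (G z y) = y := by
      filter_upwards [(isOpen_slice hT z).mem_nhds hp] with y hy using hfG (z, y) hy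
    have h4 := HasFDerivAt.of_local_left_inverse h2 h1 h3
    have h5 : (fderiv ℝ (f z) (G z w)).inverse = (A.symm : F →L[ℝ] E) := by
      rw [← hA, ContinuousLinearMap.inverse_equiv]
    show HasFDerivAt (G z) (fderiv ℝ (f z) (G z w)).inverse w
    rw [h5]
    exact h4
  refine JC.of_jcn fun n => ?_
  induction n with
  | zero => exact JCn_zero.2 ⟨hT, hG⟩
  | succ n ih =>
    refine JCn.of_hasFDerivAt (f1 := fun z w => (fderiv ℝ (f z) (G z w)).inverse) hG
      (fun p hp => hder p hp) ?_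
    have h1 : JCn n (fun z w => fderiv ℝ (f z) (G z w)) T :=
      ((hf.fderiv.jcn n).comp ih).mono hT fun p hp => ⟨hp, hGS p hp⟩
    have hU : IsOpen {B : E →L[ℝ] F | B.IsInvertible} := by
      have h2 : {B : E →L[ℝ] F | B.IsInvertible} = range ((↑) : (E ≃L[ℝ] F) → E →L[ℝ] F) := by
        ext B
        exact Iff.rfl
      rw [h2]
      exact ContinuousLinearEquiv.isOpen
    have h2 : JC (fun (_ : Z) (B : E →L[ℝ] F) => B.inverse)
        ((univ : Set Z) ×ˢ {B : E →L[ℝ] F | B.IsInvertible}) := by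
      refine JC.of_contDiffOn hU (fun B hB => ?_) (isOpen_univ.prod hU) fun _ hp => hp.2
      exact (ContinuousLinearMap.IsInvertible.contDiffAt_map_inverse hB).contDiffWithinAt
    exact ((h2.jcn n).comp h1).mono hT fun p hp => ⟨hp, mem_univ _, hinv p hp⟩

omit [NormedSpace ℝ E] [NormedSpace ℝ F] in
/-- continuity of the inverses of a family from local boundedness -/
theorem continuousAt_inv [ProperSpace E] {f : Z → E → F} {G : Z → F → E}
    (hf : Continuous fun p : Z × E => f p.1 p.2) {p : Z × F} (hinj : Function.Injective (f p.1))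
    (hG : ∀ᶠ q : Z × F in 𝓝 p, f q.1 (G q.1 q.2) = q.2) {C : ℝ}
    (hb : ∀ᶠ q : Z × F in 𝓝 p, ‖G q.1 q.2‖ ≤ C) :
    ContinuousAt (fun q : Z × F => G q.1 q.2) p := by
  rw [ContinuousAt, tendsto_iff_ultrafilter]
  intro U hU
  have h1 : (U.map fun q : Z × F => G q.1 q.2 : Filter E) ≤ 𝓟 (Metric.closedBall 0 C) := by
    rw [le_principal_iff]
    refine hU ?_
    filter_upwards [hb] with q hq
    simpa using hq
  obtain ⟨u, -, hu⟩ := (isCompact_closedBall (0 : E) C).ultrafilter_le_nhds _ h1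
  have hu' : Tendsto (fun q : Z × F => G q.1 q.2) U (𝓝 u) := hu
  have h2 : Tendsto (fun q : Z × F => q.1) U (𝓝 p.1) := (continuous_fst.tendsto p).mono_left hU
  have h3 : Tendsto (fun q : Z × F => f q.1 (G q.1 q.2)) U (𝓝 (f p.1 u)) :=
    (hf.tendsto (p.1, u)).comp (h2.prodMk_nhds hu')
  have h4 : Tendsto (fun q : Z × F => f q.1 (G q.1 q.2)) U (𝓝 p.2) := by
    refine ((continuous_snd.tendsto p).mono_left hU).congr' ?_
    filter_upwards [hU hG] with q hq
    exact hq.symm
  have h5 : f p.1 u = f p.1 (G p.1 p.2) := by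
    rw [tendsto_nhds_unique h3 h4]
    exact hG.self_of_nhds.symm
  rw [← hinj h5]
  exact hu'

/-- the derivative of a lift is injective -/
theorem isInvertible_of_comp [FiniteDimensional ℝ E] {E' : Type} [NormedAddCommGroup E']
    [NormedSpace ℝ E'] [FiniteDimensional ℝ E']
    (hdim : Module.finrank ℝ E = Module.finrank ℝ E') {F₀ : E → E'} {c : E' → F}
    {u : E} (h1 : DifferentiableAt ℝ F₀ u) (h2 : DifferentiableAt ℝ c (F₀ u))
    (h3 : ∀ w, fderiv ℝ (fun x => c (F₀ x)) u w = 0 → w = 0) :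
    (fderiv ℝ F₀ u).IsInvertible := by
  have h4 : Function.Injective (fderiv ℝ F₀ u) := by
    rw [injective_iff_map_eq_zero]
    intro w hw
    apply h3
    have h5 : fderiv ℝ (fun x => c (F₀ x)) u = (fderiv ℝ c (F₀ u)).comp (fderiv ℝ F₀ u) :=
      fderiv_comp u h2 h1
    rw [h5, ContinuousLinearMap.comp_apply, hw, map_zero]
  let e : E ≃ₗ[ℝ] E' := LinearEquiv.ofInjectiveOfFinrankEq (fderiv ℝ F₀ u : E →ₗ[ℝ] E') h4 hdim
  refine ⟨e.toContinuousLinearEquiv, ?_⟩
  ext w
  rfl

end Vale.Agent.P207.N3
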