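import Vale.Agent.P207.N3.H391.JAct

/-!
# P207, line N3, row P3E (J4): the exact action on second jets of the leaves and on first jets of
the densities

For a half `H` and `y ∈ ball 0 H.ρ`:

* `D²S_{My}(0) = DM(y) D²S_y(0) DM(y)ᵀ + c2 y`, `c2` smooth,
* `DX_{My}(0) = (DX_y(0) - c1 y - Lx y (D²S_y(0))) DM(y)ᵀ`, `c1`, `Lx` smooth, `Lx = 0` when `DM`
  is constant.
-/

open Set Filter Topology Metric MeasureTheory Asymptotics InnerProductSpace
open scoped ContDiff Gradient RealInnerProductSpace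

noncomputable section

set_option linter.unusedSectionVars false

namespace Vale.Agent.P207.N3.H395

open Jet

/-! ### determinants and traces in coordinates -/

/-- trace in coordinates -/
def tr (f : E2 → E2) : ℝ := (f e1) 0 + (f e2) 1

/-- determinant in coordinates -/
def dt (f : E2 → E2) : ℝ := (f e1) 0 * (f e2) 1 - (f e2) 0 * (f e1) 1

/-- polarised determinant -/
def dt2 (f g : E2 → E2) : ℝ :=
  (g e1) 0 * (f e2) 1 + (f e1) 0 * (g e2) 1 - ((g e2) 0 * (f e1) 1 + (f e2) 0 * (g e1) 1)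

lemma det_eq_dt (K : E2 →L[ℝ] E2) : K.det = dt K := by
  let bs := (EuclideanSpace.basisFun (Fin 2) ℝ).toBasis
  have h : K.det = LinearMap.det (K : E2 →ₗ[ℝ] E2) := rfl
  rw [h, ← LinearMap.det_toMatrix bs, Matrix.det_fin_two]
  simp only [LinearMap.toMatrix_apply]
  simp [bs, dt, e1, e2]

lemma dt2_comp (A F : E2 →L[ℝ] E2) : dt2 A (fun w => A (F w)) = dt A * tr F := by
  have h1 : A (F e1) = (F e1) 0 • A e1 + (F e1) 1 • A e2 := by
    conv_lhs => rw [eq_sum (F e1)]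
    rw [map_add, map_smul, map_smul]
  have h2 : A (F e2) = (F e2) 0 • A e1 + (F e2) 1 • A e2 := by
    conv_lhs => rw [eq_sum (F e2)]
    rw [map_add, map_smul, map_smul]
  unfold dt2 dt tr
  beta_reduce
  rw [h1, h2]
  simp only [PiLp.add_apply, PiLp.smul_apply, smul_eq_mul]
  ring

/-- logarithmic derivative of the determinant -/
lemma log_det {K : E2 → E2 →L[ℝ] E2} {K' : E2 →L[ℝ] (E2 →L[ℝ] E2)} {q : E2}
    (hK : HasFDerivAt K K' q) {B : E2 →L[ℝ] E2} (hB : ∀ w, K q (B w) = w)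
    {c : ℝ} (hc : c ≠ 0) (v : E2) :
    DifferentiableAt ℝ (fun q => Real.log |(K q).det * c|) q ∧
      fderiv ℝ (fun q => Real.log |(K q).det * c|) q v = tr fun w => B (K' v w) := by
  have hdt : (K q).det ≠ 0 := by
    intro h0
    have h1 : (K q : E2 →ₗ[ℝ] E2) ∘ₗ (B : E2 →ₗ[ℝ] E2) = LinearMap.id := by
      ext1 w
      exact hB w
    have h2 := congrArg LinearMap.det h1
    rw [LinearMap.det_comp, LinearMap.det_id] at h2
    have h3 : LinearMap.det (K q : E2 →ₗ[ℝ] E2) = 0 := h0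
    rw [h3, zero_mul] at h2
    exact zero_ne_one h2
  have hco : ∀ (w : E2) (i : Fin 2), HasFDerivAt (fun q => (K q w) i)
      ((EuclideanSpace.proj i : E2 →L[ℝ] ℝ).comp
        ((ContinuousLinearMap.apply ℝ E2 w : (E2 →L[ℝ] E2) →L[ℝ] E2).comp K')) q := by
    intro w i
    have h1 : HasFDerivAt (fun q => K q w)
        ((ContinuousLinearMap.apply ℝ E2 w : (E2 →L[ℝ] E2) →L[ℝ] E2).comp K') q :=
      (ContinuousLinearMap.apply ℝ E2 w : (E2 →L[ℝ] E2) →L[ℝ] E2).hasFDerivAt.comp q hK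
    exact (hasFDerivAt_coord i (K q w)).comp q h1
  have h1 := (((hco e1 0).mul (hco e2 1)).sub ((hco e2 0).mul (hco e1 1))).mul_const c
  have h2 : (fun q => (K q).det * c) =
      fun q => ((K q e1) 0 * (K q e2) 1 - (K q e2) 0 * (K q e1) 1) * c := by
    ext q
    rw [det_eq_dt]
    rfl
  have h3 := h1.congr_of_eventuallyEq (f₁ := fun q => (K q).det * c)
    (Eventually.of_forall fun x => congrFun h2 x)
  have h4 := h3.log (mul_ne_zero hdt hc)
  have h5 : (fun q => Real.log |(K q).det * c|) = fun q => Real.log ((K q).det * c) := by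
    ext q
    exact Real.log_abs _
  rw [h5]
  refine ⟨h4.differentiableAt, ?_⟩
  rw [h4.fderiv]
  have h6 : dt2 (K q) (fun w => K' v w) = dt (K q) * tr fun w => B (K' v w) := by
    have h7 := dt2_comp (K q) (B.comp (K' v))
    have h8 : (fun w => K q ((B.comp (K' v)) w)) = fun w => K' v w := by
      ext1 w
      exact hB _
    rw [h8] at h7
    exact h7
  have h9 : dt (K q) = (K q).det := (det_eq_dt _).symm
  have h10 : tr (fun w => B (K' v w)) = ((K q).det)⁻¹ * dt2 (K q) (fun w => K' v w) := by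
    rw [h6, h9, ← mul_assoc, inv_mul_cancel₀ hdt, one_mul]
  rw [h10]
  change ((K q).det * c)⁻¹ * (c * (((K q e1) 0 * (K' v e2) 1 + (K q e2) 1 * (K' v e1) 0)
    - ((K q e2) 0 * (K' v e1) 1 + (K q e1) 1 * (K' v e2) 0))) = _
  unfold dt2
  field_simp
  ring

/-! ### the action -/

variable (H : Half)

/-- second derivative of `a` at `(0, y)` -/
def D2a (y : E2) : E2 × E2 →L[ℝ] (E2 × E2 →L[ℝ] E2) := fderiv ℝ (fderiv ℝ H.a) (0, y)

/-- the smooth term in the action on second jets -/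
def c2 (y : E2) : E2 →L[ℝ] E2 :=
  ((fderiv ℝ H.b (0, y)).comp (ContinuousLinearMap.inl ℝ E2 E2)).comp (H.Mt y)

/-- the smooth term in the action on first jets of the densities -/
def c1 (y v : E2) : ℝ := tr fun w => H.Mt y (D2a H y (v, 0) (w, 0))

/-- the term linear in the second jet in the action on first jets of the densities -/
def Lx (y : E2) (K : E2 → E2) (v : E2) : ℝ :=
  tr fun w => H.Mt y (D2a H y (v, 0) (0, K w) + D2a H y (0, K v) (w, 0))

lemma P_at {y : E2} (hy : y ∈ ball (0 : E2) H.r) : ContDiffAt ℝ ∞ (∇ (H.S y)) 0 :=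
  smooth_grad (H.S_at hy)

lemma ball_le {y : E2} (hy : y ∈ ball (0 : E2) H.ρ) : y ∈ ball (0 : E2) H.r :=
  ball_subset_ball H.ρ_le hy

/-- the curve `q ↦ (q, P q)` -/
lemma hasFDerivAt_gr {y : E2} (hy : y ∈ ball (0 : E2) H.r) :
    HasFDerivAt (fun q => (q, ∇ (H.S y) q))
      ((ContinuousLinearMap.id ℝ E2).prod (fderiv ℝ (∇ (H.S y)) 0)) 0 :=
  (hasFDerivAt_id _).prodMk ((P_at H hy).differentiableAt (by simp)).hasFDerivAt

/-- derivative of `q ↦ a (q, P q)` at the origin -/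
lemma hasFDerivAt_F {y : E2} (hy : y ∈ ball (0 : E2) H.r) {A : E2 →L[ℝ] E2}
    (hA : ∀ v, fderiv ℝ H.a (0, y) (v, 0) = A v) :
    HasFDerivAt (fun q => H.a (q, ∇ (H.S y) q)) A 0 := by
  have h1 : HasFDerivAt H.a (fderiv ℝ H.a (0, y)) ((0 : E2), ∇ (H.S y) 0) := by
    rw [H.S_grad y hy]
    exact ((H.a_at (H.mem0 hy)).differentiableAt (by simp)).hasFDerivAt
  have h2 := HasFDerivAt.comp (g := H.a) (f := fun q => (q, ∇ (H.S y) q)) 0 h1
    (hasFDerivAt_gr H hy)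
  have e : (fderiv ℝ H.a (0, y)).comp
      ((ContinuousLinearMap.id ℝ E2).prod (fderiv ℝ (∇ (H.S y)) 0)) = A := by
    ext1 v
    have h3 : ((ContinuousLinearMap.id ℝ E2).prod (fderiv ℝ (∇ (H.S y)) 0)) v
        = (v, (0 : E2)) + ((0 : E2), fderiv ℝ (∇ (H.S y)) 0 v) := by simp
    rw [ContinuousLinearMap.comp_apply, h3, map_add, H.a_p hy, hA, add_zero]
  rw [e] at h2
  exact h2

/-- **(J4), second jets of the leaves.** -/
theorem hess_inv {y : E2} (hy : y ∈ ball (0 : E2) H.ρ) (v : E2) :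
    fderiv ℝ (∇ (H.S (H.M y))) 0 v
      = fderiv ℝ H.M y (fderiv ℝ (∇ (H.S y)) 0 (H.Mt y v)) + c2 H y v := by
  have hyr := ball_le H hy
  obtain ⟨A, hA, hAs⟩ := H.exists_A hyr
  have hF := hasFDerivAt_F H hyr (A := (A : E2 →L[ℝ] E2)) hA
  have hF0 : H.a (0, ∇ (H.S y) 0) = 0 := by rw [H.S_grad y hyr, H.a_zero y hyr]
  have hP' : HasFDerivAt (∇ (H.S (H.M y))) (fderiv ℝ (∇ (H.S (H.M y))) 0)
      (H.a (0, ∇ (H.S y) 0)) := by
    rw [hF0]
    exact ((P_at H (H.M_maps y hy)).differentiableAt (by simp)).hasFDerivAt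
  have h1 := HasFDerivAt.comp (g := ∇ (H.S (H.M y))) (f := fun q => H.a (q, ∇ (H.S y) q))
    0 hP' hF
  have hb : HasFDerivAt H.b (fderiv ℝ H.b (0, y)) ((0 : E2), ∇ (H.S y) 0) := by
    rw [H.S_grad y hyr]
    exact ((H.b_at (H.mem0 hyr)).differentiableAt (by simp)).hasFDerivAt
  have h2 := HasFDerivAt.comp (g := H.b) (f := fun q => (q, ∇ (H.S y) q)) 0 hb
    (hasFDerivAt_gr H hyr)
  have h3 : (∇ (H.S (H.M y))) ∘ (fun q => H.a (q, ∇ (H.S y) q)) =ᶠ[𝓝 0]
      H.b ∘ fun q => (q, ∇ (H.S y) q) := by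
    filter_upwards [ball_mem_nhds (0 : E2) H.ρ_pos] with q hq
    exact H.S_inv y hy q hq
  have h4 := (h1.congr_of_eventuallyEq h3.symm).unique h2
  have h5 := congrArg (fun L : E2 →L[ℝ] E2 => L (H.Mt y v)) h4
  have h6 : A (H.Mt y v) = v := by rw [← hAs, A.apply_symm_apply]
  change fderiv ℝ (∇ (H.S (H.M y))) 0 (A (H.Mt y v)) = fderiv ℝ H.b (0, y)
    (H.Mt y v, fderiv ℝ (∇ (H.S y)) 0 (H.Mt y v)) at h5
  rw [h6] at h5
  rw [h5]
  have h7 : (H.Mt y v, fderiv ℝ (∇ (H.S y)) 0 (H.Mt y v))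
      = (H.Mt y v, (0 : E2)) + ((0 : E2), fderiv ℝ (∇ (H.S y)) 0 (H.Mt y v)) := by simp
  rw [h7, map_add, H.b_p hyr, add_comm]
  rfl

/-- `D²a (0, y) ((0, p), (0, p')) = 0` -/
lemma D2a_pp {y : E2} (hy : y ∈ ball (0 : E2) H.r) (p p' : E2) :
    D2a H y (0, p) (0, p') = 0 := by
  have hd : DifferentiableAt ℝ (fderiv ℝ H.a) (0, y) :=
    ((H.a_at (H.mem0 hy)).fderiv_right (m := ∞) (by norm_cast)).differentiableAt (by simp)
  have h1 : HasFDerivAt (fun p : E2 => fderiv ℝ H.a (0, p))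
      ((D2a H y).comp (ContinuousLinearMap.inr ℝ E2 E2)) y :=
    HasFDerivAt.comp (g := fderiv ℝ H.a) y hd.hasFDerivAt (hasFDerivAt_prodMk_right 0 y)
  have h2 : HasFDerivAt (fun p : E2 => fderiv ℝ H.a (0, p) (0, p'))
      ((ContinuousLinearMap.apply ℝ E2 ((0 : E2), p') :
        (E2 × E2 →L[ℝ] E2) →L[ℝ] E2).comp ((D2a H y).comp (ContinuousLinearMap.inr ℝ E2 E2))) y :=
    (ContinuousLinearMap.apply ℝ E2 ((0 : E2), p') :
      (E2 × E2 →L[ℝ] E2) →L[ℝ] E2).hasFDerivAt.comp y h1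
  have h3 : (fun p : E2 => fderiv ℝ H.a (0, p) (0, p')) =ᶠ[𝓝 y] fun _ => (0 : E2) := by
    filter_upwards [isOpen_ball.mem_nhds hy] with z hz
    exact H.a_p hz p'
  have h4 : HasFDerivAt (fun p : E2 => fderiv ℝ H.a (0, p) (0, p')) (0 : E2 →L[ℝ] E2) y :=
    (hasFDerivAt_const (0 : E2) y).congr_of_eventuallyEq h3
  have h5 := congrArg (fun L : E2 →L[ℝ] E2 => L p) (h2.unique h4)
  simpa using h5

/-- `D²a (0, y) ((0, p), (w, 0))` is the derivative of `∂a/∂q (0, ·)` -/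
lemma D2a_pq {y : E2} (hy : y ∈ ball (0 : E2) H.r) (p w : E2) :
    D2a H y (0, p) (w, 0) = fderiv ℝ (fun z => fderiv ℝ H.a (0, z) (w, 0)) y p := by
  have hd : DifferentiableAt ℝ (fderiv ℝ H.a) (0, y) :=
    ((H.a_at (H.mem0 hy)).fderiv_right (m := ∞) (by norm_cast)).differentiableAt (by simp)
  have h1 : HasFDerivAt (fun p : E2 => fderiv ℝ H.a (0, p))
      ((D2a H y).comp (ContinuousLinearMap.inr ℝ E2 E2)) y :=
    HasFDerivAt.comp (g := fderiv ℝ H.a) y hd.hasFDerivAt (hasFDerivAt_prodMk_right 0 y)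
  have h2 : HasFDerivAt (fun z : E2 => fderiv ℝ H.a (0, z) (w, 0))
      ((ContinuousLinearMap.apply ℝ E2 (w, (0 : E2)) :
        (E2 × E2 →L[ℝ] E2) →L[ℝ] E2).comp ((D2a H y).comp (ContinuousLinearMap.inr ℝ E2 E2))) y :=
    (ContinuousLinearMap.apply ℝ E2 (w, (0 : E2)) :
      (E2 × E2 →L[ℝ] E2) →L[ℝ] E2).hasFDerivAt.comp y h1
  rw [h2.fderiv]
  simp

lemma D2a_symm {y : E2} (hy : y ∈ ball (0 : E2) H.r) (u v : E2 × E2) :
    D2a H y u v = D2a H y v u := by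
  have h2 : ContDiffAt ℝ 2 H.a (0, y) := (H.a_at (H.mem0 hy)).of_le (by norm_cast)
  have hs : IsSymmSndFDerivAt ℝ H.a (0, y) := h2.isSymmSndFDerivAt (by simp)
  exact hs.eq _ _

/-- `DM (y)` is invertible -/
lemma det_M_ne {y : E2} (hy : y ∈ ball (0 : E2) H.r) : (fderiv ℝ H.M y).det ≠ 0 := by
  obtain ⟨A, hA, hAs⟩ := H.exists_A hy
  have h1 : ∀ w, fderiv ℝ H.M y (ContinuousLinearMap.adjoint (A : E2 →L[ℝ] E2) w) = w := by
    intro w
    refine ext_inner_right ℝ fun v => ?_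
    have h2 : ⟪fderiv ℝ H.M y (ContinuousLinearMap.adjoint (A : E2 →L[ℝ] E2) w), v⟫
        = ⟪ContinuousLinearMap.adjoint (A : E2 →L[ℝ] E2) w, H.Mt y v⟫ := by
      unfold Half.Mt
      rw [ContinuousLinearMap.adjoint_inner_right]
    rw [h2, ContinuousLinearMap.adjoint_inner_left]
    change ⟪w, A (H.Mt y v)⟫ = _
    rw [← hAs, A.apply_symm_apply]
  intro h0
  have h1' : (fderiv ℝ H.M y : E2 →ₗ[ℝ] E2) ∘ₗ
      (ContinuousLinearMap.adjoint (A : E2 →L[ℝ] E2) : E2 →ₗ[ℝ] E2) = LinearMap.id := by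
    ext1 w
    exact h1 w
  have h2 := congrArg LinearMap.det h1'
  rw [LinearMap.det_comp, LinearMap.det_id] at h2
  have h3 : LinearMap.det (fderiv ℝ H.M y : E2 →ₗ[ℝ] E2) = 0 := h0
  rw [h3, zero_mul] at h2
  exact zero_ne_one h2

/-- **(J4), first jets of the densities.** -/
theorem dens_inv {y : E2} (hy : y ∈ ball (0 : E2) H.ρ) (v : E2) :
    fderiv ℝ (H.X (H.M y)) 0 v
      = fderiv ℝ (H.X y) 0 (H.Mt y v) - c1 H y (H.Mt y v)
        - Lx H y (fderiv ℝ (∇ (H.S y)) 0) (H.Mt y v) := by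
  have hyr := ball_le H hy
  obtain ⟨A, hA, hAs⟩ := H.exists_A hyr
  set P := ∇ (H.S y) with hP
  set K : E2 →L[ℝ] E2 := fderiv ℝ P 0 with hK
  have hPs : ContDiffAt ℝ ∞ P 0 := P_at H hyr
  have hP0 : P 0 = y := H.S_grad y hyr
  have hF := hasFDerivAt_F H hyr (A := (A : E2 →L[ℝ] E2)) hA
  have hF0 : H.a (0, P 0) = 0 := by rw [hP0, H.a_zero y hyr]
  have hX' : HasFDerivAt (H.X (H.M y)) (fderiv ℝ (H.X (H.M y)) 0) (H.a (0, P 0)) := by
    rw [hF0]
    exact (((H.X_smooth _ (H.M_maps y hy)).contDiffAt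
      (ball_mem_nhds 0 H.r_pos)).differentiableAt (by simp)).hasFDerivAt
  have h1 := HasFDerivAt.comp (g := H.X (H.M y)) (f := fun q => H.a (q, P q)) 0 hX' hF
  -- the derivative of `q ↦ D_q [a (q, P q)]`
  have hev : ∀ᶠ q in 𝓝 (0 : E2), (q, P q) ∈ ball (0 : E2) H.r ×ˢ ball (0 : E2) H.r ∧
      DifferentiableAt ℝ P q := by
    have h2 : ContinuousAt (fun q => (q, P q)) 0 := continuousAt_id.prodMk hPs.continuousAt
    have h3 : (fun q => (q, P q)) 0 ∈ ball (0 : E2) H.r ×ˢ ball (0 : E2) H.r := by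
      change ((0 : E2), P 0) ∈ _
      rw [hP0]
      exact H.mem0 hyr
    filter_upwards [h2.eventually_mem ((isOpen_ball.prod isOpen_ball).mem_nhds h3),
      (hPs.of_le (m := 1) (by norm_cast)).eventually (by simp)] with q hq1 hq2
    exact ⟨hq1, hq2.differentiableAt one_ne_zero⟩
  set G : E2 → E2 →L[ℝ] E2 := fun q => (fderiv ℝ H.a (q, P q)).comp
    ((ContinuousLinearMap.id ℝ E2).prod (fderiv ℝ P q)) with hG
  have hGe : (fun q => fderiv ℝ (fun q => H.a (q, P q)) q) =ᶠ[𝓝 0] G := by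
    filter_upwards [hev] with q hq
    have h4 : HasFDerivAt H.a (fderiv ℝ H.a (q, P q)) (q, P q) :=
      ((H.a_at hq.1).differentiableAt (by simp)).hasFDerivAt
    have h5 : HasFDerivAt (fun q => (q, P q))
        ((ContinuousLinearMap.id ℝ E2).prod (fderiv ℝ P q)) q :=
      (hasFDerivAt_id _).prodMk hq.2.hasFDerivAt
    exact (HasFDerivAt.comp (g := H.a) (f := fun q => (q, P q)) q h4 h5).fderiv
  have hD2 : HasFDerivAt (fderiv ℝ H.a) (D2a H y) ((0 : E2), P 0) := by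
    rw [hP0]
    exact (((H.a_at (H.mem0 hyr)).fderiv_right (m := ∞) (by norm_cast)).differentiableAt
      (by simp)).hasFDerivAt
  have h6 := HasFDerivAt.comp (g := fderiv ℝ H.a) (f := fun q => (q, P q)) 0 hD2
    (hasFDerivAt_gr H hyr)
  have hdP : DifferentiableAt ℝ (fderiv ℝ P) 0 :=
    (hPs.fderiv_right (m := ∞) (by norm_cast)).differentiableAt (by simp)
  have hGd : DifferentiableAt ℝ G 0 := by
    have e : G = fun q => (fderiv ℝ H.a (q, P q)).comp (ContinuousLinearMap.inl ℝ E2 E2)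
        + (fderiv ℝ H.a (q, P q)).comp ((ContinuousLinearMap.inr ℝ E2 E2).comp (fderiv ℝ P q)) := by
      funext q
      ext1 w
      have h3 : ((ContinuousLinearMap.id ℝ E2).prod (fderiv ℝ P q)) w
        = (w, (0 : E2)) + ((0 : E2), fderiv ℝ P q w) := by simp
      change fderiv ℝ H.a (q, P q) (((ContinuousLinearMap.id ℝ E2).prod (fderiv ℝ P q)) w) = _
      rw [h3, map_add]
      rfl
    rw [e]
    have h7 : DifferentiableAt ℝ (fun q => fderiv ℝ H.a (q, P q)) 0 := h6.differentiableAt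
    exact (h7.clm_comp (differentiableAt_const _)).add
      (h7.clm_comp ((differentiableAt_const _).clm_comp hdP))
  have hGv : ∀ v w : E2, fderiv ℝ G 0 v w = D2a H y (v, K v) (w, K w) := by
    intro v w
    have h7 : HasFDerivAt (fun q => G q w)
        ((ContinuousLinearMap.apply ℝ E2 w : (E2 →L[ℝ] E2) →L[ℝ] E2).comp (fderiv ℝ G 0)) 0 :=
      (ContinuousLinearMap.apply ℝ E2 w : (E2 →L[ℝ] E2) →L[ℝ] E2).hasFDerivAt.comp 0
        hGd.hasFDerivAt
    have h8 : HasFDerivAt (fun q => fderiv ℝ P q w)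
        ((ContinuousLinearMap.apply ℝ E2 w : (E2 →L[ℝ] E2) →L[ℝ] E2).comp
          (fderiv ℝ (fderiv ℝ P) 0)) 0 :=
      (ContinuousLinearMap.apply ℝ E2 w : (E2 →L[ℝ] E2) →L[ℝ] E2).hasFDerivAt.comp 0
        hdP.hasFDerivAt
    have h9 := h6.clm_apply ((hasFDerivAt_const w (0 : E2)).prodMk h8)
    have h10 := h7.unique h9
    have h11 := congrArg (fun L : E2 →L[ℝ] E2 => L v) h10
    change fderiv ℝ G 0 v w = fderiv ℝ H.a (0, P 0) ((0 : E2), fderiv ℝ (fderiv ℝ P) 0 v w)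
      + D2a H y (v, K v) (w, K w) at h11
    rw [h11, hP0, H.a_p hyr, zero_add]
  have hG0 : ∀ w, G 0 w = A w := by
    intro w
    change fderiv ℝ H.a (0, P 0) (w, K w) = A w
    have h3 : (w, K w) = (w, (0 : E2)) + ((0 : E2), K w) := by simp
    rw [hP0, h3, map_add, H.a_p hyr, hA, add_zero]
  obtain ⟨hlog, h12⟩ := log_det (K := G) hGd.hasFDerivAt (B := H.Mt y)
    (fun w => by rw [hG0, ← hAs, A.apply_symm_apply]) (det_M_ne H hyr) (H.Mt y v)
  have hXs : HasFDerivAt (H.X y) (fderiv ℝ (H.X y) 0) 0 :=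
    (((H.X_smooth _ hyr).contDiffAt (ball_mem_nhds 0 H.r_pos)).differentiableAt
      (by simp)).hasFDerivAt
  have h13 := hXs.sub hlog.hasFDerivAt
  have h14 : H.X (H.M y) ∘ (fun q => H.a (q, P q)) =ᶠ[𝓝 0]
      (H.X y - fun q => Real.log |(G q).det * (fderiv ℝ H.M y).det|) := by
    filter_upwards [ball_mem_nhds (0 : E2) H.ρ_pos, hGe] with q hq hq2
    have h15 := H.X_inv y hy q hq
    rw [← hP] at h15
    rw [hq2] at h15
    exact h15
  have h16 := (h1.congr_of_eventuallyEq h14.symm).unique h13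
  have h17 := congrArg (fun L : E2 →L[ℝ] ℝ => L (H.Mt y v)) h16
  have h18 : A (H.Mt y v) = v := by rw [← hAs, A.apply_symm_apply]
  change fderiv ℝ (H.X (H.M y)) 0 (A (H.Mt y v)) = fderiv ℝ (H.X y) 0 (H.Mt y v)
    - fderiv ℝ (fun q => Real.log |(G q).det * (fderiv ℝ H.M y).det|) 0 (H.Mt y v) at h17
  rw [h18, h12] at h17
  rw [h17]
  have h19 : ∀ u w : E2, D2a H y (u, K u) (w, K w) = D2a H y (u, 0) (w, 0)
      + (D2a H y (u, 0) (0, K w) + D2a H y (0, K u) (w, 0)) := by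
    intro u w
    have h3 : (w, K w) = (w, (0 : E2)) + ((0 : E2), K w) := by simp
    have h4 : (u, K u) = (u, (0 : E2)) + ((0 : E2), K u) := by simp
    rw [h3, h4]
    simp only [map_add, add_apply, D2a_pp H hyr, add_zero]
    abel
  unfold c1 Lx tr
  simp only [hGv, h19, map_add, PiLp.add_apply]
  ring

end Vale.Agent.P207.N3.H395
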