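import Vale.Agent.P207.N3.H394.XComp

/-!
# P207, line N3, row P3E: the leading part of the trace in the action on the densities
-/

open Set Filter Topology Metric MeasureTheory Asymptotics InnerProductSpace
open scoped ContDiff Gradient RealInnerProductSpace

noncomputable section

set_option linter.unusedSectionVars false

namespace Vale.Agent.P207.N3.H395

open Jet H394

/-! ### an estimate of second order -/

/-- `G` vanishes on `{q = 0}` together with `∂_q G`: second order in `q`. -/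
lemma second_order {G : E2 × E2 → E2} {y : E2} (hG : ContDiffAt ℝ ∞ G (0, y))
    (h0 : ∀ᶠ p in 𝓝 y, fderiv ℝ G (0, p) = 0) {P Ph : E2 → E2} {m : ℕ}
    (hP : OB 1 fun q => P q - y) (hPh : OB 1 fun q => Ph q - y)
    (hQ : OB m fun q => P q - Ph q) : OB (m + 2) fun q => G (q, P q) - G (q, Ph q) := by
  -- the derivative in `p`
  set g : E2 × E2 → (E2 →L[ℝ] E2) := fun z => (fderiv ℝ G z).comp (ContinuousLinearMap.inr ℝ E2 E2)
    with hg
  have hdG : ContDiffAt ℝ ∞ (fderiv ℝ G) (0, y) := hG.fderiv_right (m := ∞) (by norm_cast)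
  have hgs : ContDiffAt ℝ ∞ g (0, y) := hdG.clm_comp contDiffAt_const
  have hg0 : ∀ᶠ p in 𝓝 y, g (0, p) = 0 := by
    filter_upwards [h0] with p hp
    simp [hg, hp]
  -- the derivative of `g` in `q` on `{q = 0}`
  have hsymm : IsSymmSndFDerivAt ℝ G (0, y) :=
    (hG.of_le (by norm_cast : (2 : WithTop ℕ∞) ≤ ∞)).isSymmSndFDerivAt (by simp)
  have hd2 : DifferentiableAt ℝ (fderiv ℝ G) (0, y) := hdG.differentiableAt (by simp)
  have hpz : ∀ p' : E2, fderiv ℝ (fderiv ℝ G) (0, y) (0, p') = 0 := by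
    intro p'
    have h1 : HasFDerivAt (fun p : E2 => fderiv ℝ G (0, p))
        ((fderiv ℝ (fderiv ℝ G) (0, y)).comp (ContinuousLinearMap.inr ℝ E2 E2)) y :=
      HasFDerivAt.comp (g := fderiv ℝ G) y hd2.hasFDerivAt (hasFDerivAt_prodMk_right 0 y)
    have h3 : (fun p : E2 => fderiv ℝ G (0, p)) =ᶠ[𝓝 y] fun _ => (0 : E2 × E2 →L[ℝ] E2) := h0
    have h4 : HasFDerivAt (fun p : E2 => fderiv ℝ G (0, p))
        (0 : E2 →L[ℝ] (E2 × E2 →L[ℝ] E2)) y :=
      (hasFDerivAt_const (0 : E2 × E2 →L[ℝ] E2) y).congr_of_eventuallyEq h3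
    have h5 := congrArg (fun L : E2 →L[ℝ] (E2 × E2 →L[ℝ] E2) => L p') (h1.unique h4)
    simpa using h5
  have hgd : ∀ z : E2 × E2, fderiv ℝ g (0, y) z = 0 := by
    intro z
    have h1 : HasFDerivAt g (((ContinuousLinearMap.compL ℝ E2 (E2 × E2) E2).flip
        (ContinuousLinearMap.inr ℝ E2 E2)).comp (fderiv ℝ (fderiv ℝ G) (0, y))) (0, y) :=
      ((ContinuousLinearMap.compL ℝ E2 (E2 × E2) E2).flip
        (ContinuousLinearMap.inr ℝ E2 E2)).hasFDerivAt.comp (0, y) hd2.hasFDerivAt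
    rw [h1.fderiv]
    ext1 p'
    change fderiv ℝ (fderiv ℝ G) (0, y) z (0, p') = 0
    rw [hsymm.eq, hpz]
    rfl
  -- the bound of `g`
  obtain ⟨C, hC0, r, hr, hC⟩ := C2_est (hgs.of_le (by norm_cast : (2 : WithTop ℕ∞) ≤ ∞))
  obtain ⟨r', hr', hb⟩ := Metric.eventually_nhds_iff_ball.1 hg0
  have hd1 := (hG.of_le (m := 1) (by norm_cast)).eventually (by simp)
  obtain ⟨r'', hr'', hb''⟩ := Metric.eventually_nhds_iff_ball.1 hd1
  set ρ := min r (min r' r'') with hρ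
  have hρ0 : 0 < ρ := by positivity
  have t : ∀ {w : E2 → E2}, (OB 1 fun q => w q - y) → ∀ᶠ q in 𝓝 0, w q ∈ ball y ρ := by
    intro w hw
    have h0 : Tendsto (fun q => w q - y) (𝓝 0) (𝓝 0) := by
      refine IsBigO.trans_tendsto hw ?_
      have : Tendsto (fun q : E2 => ‖q‖ ^ 1) (𝓝 0) (𝓝 (‖(0 : E2)‖ ^ 1)) :=
        (continuous_norm.pow 1).tendsto 0
      simpa using this
    filter_upwards [h0 (ball_mem_nhds 0 hρ0)] with q hq
    simpa [dist_eq_norm] using hq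
  have key : (fun q => G (q, P q) - G (q, Ph q)) =O[𝓝 0]
      fun q => ((‖q‖ + 2 * (‖P q - y‖ + ‖Ph q - y‖)) * ‖q‖) * ‖P q - Ph q‖ := by
    refine IsBigO.of_bound C ?_
    filter_upwards [t hP, t hPh, ball_mem_nhds (0 : E2) hρ0] with q h1 h2 h3
    rw [mem_ball_zero_iff] at h3
    have h4 : ∀ w ∈ segment ℝ (Ph q) (P q), w ∈ ball y ρ ∧ ‖w - y‖ ≤ ‖P q - y‖ + ‖Ph q - y‖ := by
      intro w hw
      refine ⟨(convex_ball y ρ).segment_subset h2 h1 hw, ?_⟩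
      obtain ⟨s, t, hs, ht, hst, rfl⟩ := hw
      have e : s • Ph q + t • P q - y = s • (Ph q - y) + t • (P q - y) := by
        rw [smul_sub, smul_sub]
        have : y = s • y + t • y := by rw [← add_smul, hst, one_smul]
        nth_rewrite 1 [this]
        abel
      rw [e]
      refine (norm_add_le _ _).trans ?_
      rw [norm_smul, norm_smul, Real.norm_of_nonneg hs, Real.norm_of_nonneg ht]
      have h5 : s * ‖Ph q - y‖ ≤ ‖Ph q - y‖ := mul_le_of_le_one_left (norm_nonneg _) (by linarith)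
      have h6 : t * ‖P q - y‖ ≤ ‖P q - y‖ := mul_le_of_le_one_left (norm_nonneg _) (by linarith)
      linarith
    have hmem : ∀ w ∈ ball y ρ, (q, w) ∈ ball ((0 : E2), y) r'' ∧ (q, w) ∈ ball ((0 : E2), y) r ∧
        ((0 : E2), w) ∈ ball ((0 : E2), y) r ∧ w ∈ ball y r' := by
      intro w hw
      rw [mem_ball, dist_eq_norm] at hw
      have hρ1 : ρ ≤ r := min_le_left _ _
      have hρ2 : ρ ≤ r' := (min_le_right _ _).trans (min_le_left _ _)
      have hρ3 : ρ ≤ r'' := (min_le_right _ _).trans (min_le_right _ _)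
      simp only [mem_ball, dist_eq_norm, Prod.mk_sub_mk, sub_zero, Prod.norm_def, sub_self,
        norm_zero]
      refine ⟨max_lt (h3.trans_le hρ3) (hw.trans_le hρ3), max_lt (h3.trans_le hρ1)
        (hw.trans_le hρ1), max_lt hr (hw.trans_le hρ1), hw.trans_le hρ2⟩
    have h5 : ∀ w ∈ segment ℝ (Ph q) (P q), ‖fderiv ℝ (fun p => G (q, p)) w‖
        ≤ C * ((‖q‖ + 2 * (‖P q - y‖ + ‖Ph q - y‖)) * ‖q‖) := by
      intro w hw
      obtain ⟨hw1, hw2⟩ := h4 w hw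
      obtain ⟨hm1, hm2, hm3, hm4⟩ := hmem w hw1
      have hd : DifferentiableAt ℝ G (q, w) := (hb'' _ hm1).differentiableAt one_ne_zero
      have e1 : HasFDerivAt (fun p => G (q, p)) (g (q, w)) w :=
        HasFDerivAt.comp (g := G) w hd.hasFDerivAt (hasFDerivAt_prodMk_right q w)
      rw [e1.fderiv]
      have e2 := hC _ hm2 _ hm3
      rw [hb w hm4, hgd, sub_zero, sub_zero] at e2
      refine e2.trans ?_
      have n1 : ‖(q, w) - ((0 : E2), y)‖ ≤ ‖q‖ + (‖P q - y‖ + ‖Ph q - y‖) := by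
        simp only [Prod.mk_sub_mk, sub_zero, Prod.norm_def]
        refine max_le ?_ ?_
        · have := add_nonneg (norm_nonneg (P q - y)) (norm_nonneg (Ph q - y))
          linarith
        · have := norm_nonneg q
          linarith
      have n2 : ‖((0 : E2), w) - ((0 : E2), y)‖ ≤ ‖P q - y‖ + ‖Ph q - y‖ := by
        simp only [Prod.mk_sub_mk, sub_zero, Prod.norm_def, norm_zero]
        exact max_le (add_nonneg (norm_nonneg _) (norm_nonneg _)) hw2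
      have n3 : ‖(q, w) - ((0 : E2), w)‖ = ‖q‖ := by
        simp only [Prod.mk_sub_mk, sub_zero, Prod.norm_def, sub_self, norm_zero]
        exact max_eq_left (norm_nonneg _)
      rw [n3, mul_assoc]
      refine mul_le_mul_of_nonneg_left ?_ hC0
      refine mul_le_mul_of_nonneg_right ?_ (norm_nonneg _)
      linarith
    have h7 := (convex_segment (𝕜 := ℝ) (Ph q) (P q)).norm_image_sub_le_of_norm_fderiv_le
      (f := fun p => G (q, p)) (fun w hw => by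
        obtain ⟨hm1, -⟩ := hmem w (h4 w hw).1
        have hd : DifferentiableAt ℝ G (q, w) := (hb'' _ hm1).differentiableAt one_ne_zero
        exact (HasFDerivAt.comp (g := G) w hd.hasFDerivAt
          (hasFDerivAt_prodMk_right q w)).differentiableAt) h5
      (left_mem_segment _ _ _) (right_mem_segment _ _ _)
    refine h7.trans (le_of_eq ?_)
    rw [Real.norm_of_nonneg (by positivity)]
    ring
  refine key.trans ?_
  have e1 : (fun q : E2 => ‖q‖) =O[𝓝 0] fun q : E2 => ‖q‖ ^ 1 := by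
    simpa using (isBigO_refl (fun q : E2 => ‖q‖) (𝓝 0))
  have e2 : (fun q => ‖q‖ + 2 * (‖P q - y‖ + ‖Ph q - y‖)) =O[𝓝 0] fun q : E2 => ‖q‖ ^ 1 :=
    e1.add (IsBigO.const_mul_left (IsBigO.add hP.norm_left hPh.norm_left) 2)
  refine (((e2.mul e1).mul hQ.norm_left)).congr_right fun q => ?_
  ring

/-! ### the map `A (p) = ∂a/∂q (0, p)` -/

variable (H : Half)

/-- `∂a/∂q (0, p)` -/
def Aq (p : E2) : E2 →L[ℝ] E2 := (fderiv ℝ H.a (0, p)).comp (ContinuousLinearMap.inl ℝ E2 E2)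

lemma Aq_smooth {y : E2} (hy : y ∈ ball (0 : E2) H.r) : ContDiffAt ℝ ∞ (Aq H) y := by
  have h1 : ContDiffAt ℝ ∞ (fderiv ℝ H.a) (0, y) :=
    (H.a_at (H.mem0 hy)).fderiv_right (m := ∞) (by norm_cast)
  have h2 : ContDiffAt ℝ ∞ (fun p : E2 => fderiv ℝ H.a (0, p)) y :=
    ContDiffAt.comp (g := fderiv ℝ H.a) y h1 (contDiffAt_const.prodMk contDiffAt_id)
  exact h2.clm_comp contDiffAt_const

/-- first step: `a (q, P) - a (q, P̂) = (DA (y) (P - P̂)) q + O (|q| ^ (m + 2))` -/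
lemma a_sub {y : E2} (hy : y ∈ ball (0 : E2) H.r) {P Ph : E2 → E2} {m : ℕ}
    (hP : OB 1 fun q => P q - y) (hPh : OB 1 fun q => Ph q - y)
    (hQ : OB m fun q => P q - Ph q) :
    OB (m + 2) fun q => H.a (q, P q) - H.a (q, Ph q)
      - fderiv ℝ (Aq H) y (P q - Ph q) q := by
  set G : E2 × E2 → E2 := fun z => H.a z - Aq H z.2 z.1 with hG
  have hGs : ContDiffAt ℝ ∞ G (0, y) := by
    refine (H.a_at (H.mem0 hy)).sub ?_
    have h1 : ContDiffAt ℝ ∞ (fun z : E2 × E2 => Aq H z.2) (0, y) :=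
      ContDiffAt.comp (g := Aq H) ((0 : E2), y) (Aq_smooth H hy) contDiffAt_snd
    exact h1.clm_apply contDiffAt_fst
  have hG0 : ∀ᶠ p in 𝓝 y, fderiv ℝ G (0, p) = 0 := by
    filter_upwards [isOpen_ball.mem_nhds hy] with p hp
    have h1 : HasFDerivAt H.a (fderiv ℝ H.a (0, p)) (0, p) :=
      ((H.a_at (H.mem0 hp)).differentiableAt (by simp)).hasFDerivAt
    have h2 : HasFDerivAt (fun z : E2 × E2 => Aq H z.2)
        ((fderiv ℝ (Aq H) p).comp (ContinuousLinearMap.snd ℝ E2 E2)) ((0 : E2), p) :=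
      HasFDerivAt.comp (g := Aq H) ((0 : E2), p)
        (((Aq_smooth H hp).differentiableAt (by simp)).hasFDerivAt) hasFDerivAt_snd
    have h3 := h1.sub (h2.clm_apply hasFDerivAt_fst)
    have h4 : fderiv ℝ G (0, p) = _ := h3.fderiv
    rw [h4]
    refine ContinuousLinearMap.ext fun z => ?_
    change fderiv ℝ H.a (0, p) z - (fderiv ℝ H.a (0, p) (z.1, 0)
      + fderiv ℝ (Aq H) p z.2 (0 : E2)) = 0
    rw [map_zero, add_zero]
    have h5 : z = (z.1, (0 : E2)) + ((0 : E2), z.2) := by simp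
    have h6 : fderiv ℝ H.a (0, p) z = fderiv ℝ H.a (0, p) (z.1, 0) := by
      conv_lhs => rw [h5]
      rw [map_add, H.a_p hp, add_zero]
    rw [h6, sub_self]
  have h1 := second_order hGs hG0 hP hPh hQ
  have h2 : OB (m + 1) fun q => Aq H (P q) - Aq H (Ph q) - fderiv ℝ (Aq H) y (P q - Ph q) :=
    OB.C2 ((Aq_smooth H hy).of_le (by norm_cast)) hP hPh hQ
  have h3 : OB 1 fun q : E2 => q := OB.of_differentiableAt differentiableAt_id rfl
  have h4 : OB (m + 1 + 1) fun q => (Aq H (P q) - Aq H (Ph q)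
    - fderiv ℝ (Aq H) y (P q - Ph q)) q := OB.clm h2 h3
  refine (h1.add h4).congr (Eventually.of_forall fun q => ?_)
  change H.a (q, P q) - Aq H (P q) q - (H.a (q, Ph q) - Aq H (Ph q) q)
    + (Aq H (P q) q - Aq H (Ph q) q - fderiv ℝ (Aq H) y (P q - Ph q) q) = _
  abel_nf

/-! ### the normal form -/

/-- the normal form -/
def nfm (m1 m2 c : ℝ) (k : ℕ) (p : E2) : E2 := !₂[m1 * p 0 + c * p 1 ^ k, m2 * p 1]

lemma hasFDerivAt_nfm (m1 m2 c : ℝ) (k : ℕ) (p : E2) : ∃ L : E2 →L[ℝ] E2,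
    HasFDerivAt (nfm m1 m2 c k) L p ∧
      ∀ v, L v = !₂[m1 * v 0 + c * (k * p 1 ^ (k - 1)) * v 1, m2 * v 1] := by
  have h0 := (hasFDerivAt_coord 0 p).const_mul m1
  have h1 := hasFDerivAt_coord 1 p
  have h2 := h0.add ((h1.pow k).const_mul c)
  have h3 := h1.const_mul m2
  have h4 : DifferentiableAt ℝ (nfm m1 m2 c k) p := by
    rw [differentiableAt_euclidean]
    intro i
    fin_cases i
    · exact h2.differentiableAt
    · exact h3.differentiableAt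
  refine ⟨fderiv ℝ (nfm m1 m2 c k) p, h4.hasFDerivAt, fun v => ?_⟩
  have h5 : ∀ i : Fin 2, HasFDerivAt (fun p => (nfm m1 m2 c k p) i)
      ((EuclideanSpace.proj i : E2 →L[ℝ] ℝ).comp (fderiv ℝ (nfm m1 m2 c k) p)) p := fun i =>
    HasFDerivAt.comp (g := fun q : E2 => q i) p (hasFDerivAt_coord i _) h4.hasFDerivAt
  ext i
  fin_cases i
  · have h6 := congrArg (fun L : E2 →L[ℝ] ℝ => L v) ((h5 0).unique h2)
    change (fderiv ℝ (nfm m1 m2 c k) p v) 0 = _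
    refine Eq.trans h6 ?_
    simp
    ring
  · have h6 := congrArg (fun L : E2 →L[ℝ] ℝ => L v) ((h5 1).unique h3)
    change (fderiv ℝ (nfm m1 m2 c k) p v) 1 = _
    refine Eq.trans h6 ?_
    simp

lemma Mt_tl {m1 m2 c : ℝ} {k : ℕ} {y : E2} (h : H.M =ᶠ[𝓝 y] nfm m1 m2 c k) (q : E2) :
    H.Mt y q = tl m1 m2 (c * k * y 1 ^ (k - 1)) q := by
  obtain ⟨L, hL, hv⟩ := hasFDerivAt_nfm m1 m2 c k y
  have h1 : fderiv ℝ H.M y = L := (hL.congr_of_eventuallyEq h).fderiv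
  refine ext_inner_right ℝ fun v => ?_
  unfold Half.Mt
  rw [ContinuousLinearMap.adjoint_inner_left, h1, hv]
  simp [PiLp.inner_apply, tl]
  ring

/-- `A (p)` in the normal form -/
lemma Aq_eq {m1 m2 c : ℝ} {k : ℕ} (hm1 : m1 ≠ 0) (hm2 : m2 ≠ 0) {y : E2}
    (hy : y ∈ ball (0 : E2) H.r) (h : H.M =ᶠ[𝓝 y] nfm m1 m2 c k) (w : E2) :
    Aq H y w = !₂[w 0 / m1, (w 1 - c * k * y 1 ^ (k - 1) * (w 0 / m1)) / m2] := by
  obtain ⟨A, hA, hAs⟩ := H.exists_A hy
  have h1 : Aq H y w = A w := hA w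
  have h2 : H.Mt y (Aq H y w) = w := by rw [h1, ← hAs, A.symm_apply_apply]
  rw [Mt_tl H h] at h2
  have h3 : m1 * (Aq H y w) 0 = w 0 := congrArg (fun v : E2 => v 0) h2
  have h4 : c * k * y 1 ^ (k - 1) * (Aq H y w) 0 + m2 * (Aq H y w) 1 = w 1 :=
    congrArg (fun v : E2 => v 1) h2
  have h5 : (Aq H y w) 0 = w 0 / m1 := by
    rw [← h3]
    field_simp
  rw [h5] at h4
  have h6 : (Aq H y w) 1 = (w 1 - c * k * y 1 ^ (k - 1) * (w 0 / m1)) / m2 := by
    rw [← h4]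
    field_simp
    ring
  ext i
  fin_cases i
  · exact h5
  · exact h6

/-- the derivative of `A` in the normal form -/
lemma dAq_eq {m1 m2 c : ℝ} {k : ℕ} (hm1 : m1 ≠ 0) (hm2 : m2 ≠ 0) {y : E2}
    (hy : y ∈ ball (0 : E2) H.r) (h : H.M =ᶠ[𝓝 y] nfm m1 m2 c k) (v w : E2) :
    fderiv ℝ (Aq H) y v w
      = !₂[0, -((c * k * ((k - 1 : ℕ) : ℝ) * y 1 ^ (k - 2)) * v 1 * (w 0 / m1)) / m2] := by
  have h1 : HasFDerivAt (fun p => Aq H p w)
      ((ContinuousLinearMap.apply ℝ E2 w : (E2 →L[ℝ] E2) →L[ℝ] E2).comp (fderiv ℝ (Aq H) y)) y :=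
    (ContinuousLinearMap.apply ℝ E2 w : (E2 →L[ℝ] E2) →L[ℝ] E2).hasFDerivAt.comp y
      ((Aq_smooth H hy).differentiableAt (by simp)).hasFDerivAt
  have h2 : (fun p => Aq H p w) =ᶠ[𝓝 y]
      fun p : E2 => (!₂[w 0 / m1, (w 1 - c * k * p 1 ^ (k - 1) * (w 0 / m1)) / m2] : E2) := by
    filter_upwards [isOpen_ball.mem_nhds hy, h.eventually_nhds] with p hp hp2
    exact Aq_eq H hm1 hm2 hp hp2 w
  have h3 := h1.congr_of_eventuallyEq h2.symm
  have h5 : ∀ i : Fin 2, HasFDerivAt (fun p : E2 =>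
      (!₂[w 0 / m1, (w 1 - c * k * p 1 ^ (k - 1) * (w 0 / m1)) / m2] : E2) i)
      ((EuclideanSpace.proj i : E2 →L[ℝ] ℝ).comp
        ((ContinuousLinearMap.apply ℝ E2 w : (E2 →L[ℝ] E2) →L[ℝ] E2).comp (fderiv ℝ (Aq H) y)))
      y := fun i => HasFDerivAt.comp (g := fun q : E2 => q i) y (hasFDerivAt_coord i _) h3
  have h6 : HasFDerivAt (fun _ : E2 => w 0 / m1) (0 : E2 →L[ℝ] ℝ) y := hasFDerivAt_const _ _
  have h7 := ((((hasFDerivAt_coord 1 y).pow (k - 1)).const_mul (c * k)).mul_const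
    (w 0 / m1)).const_sub (w 1) |>.mul_const m2⁻¹
  ext i
  fin_cases i
  · have h8 := congrArg (fun L : E2 →L[ℝ] ℝ => L v) ((h5 0).unique h6)
    change (fderiv ℝ (Aq H) y v w) 0 = _
    exact h8
  · have h8 := congrArg (fun L : E2 →L[ℝ] ℝ => L v) ((h5 1).unique h7)
    change (fderiv ℝ (Aq H) y v w) 1 = _
    refine Eq.trans h8 ?_
    simp
    have e : k - 1 - 1 = k - 2 := by omega
    rw [e]
    ring

lemma OB_grad' {m : ℕ} {f : E2 → ℝ} (hf : ContDiffAt ℝ ∞ f 0) (h : OB (m + 1) f) :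
    OB m (∇ f) := by
  have h1 := OB.fderiv hf h
  refine OB_coord ?_ ?_
  · have h2 := OB.clm_const h1 (ContinuousLinearMap.apply ℝ ℝ e1 : (E2 →L[ℝ] ℝ) →L[ℝ] ℝ)
    refine h2.congr (Eventually.of_forall fun q => ?_)
    exact (grad_zero f q).symm
  · have h2 := OB.clm_const h1 (ContinuousLinearMap.apply ℝ ℝ e2 : (E2 →L[ℝ] ℝ) →L[ℝ] ℝ)
    refine h2.congr (Eventually.of_forall fun q => ?_)
    exact (grad_one f q).symm

/-- `D2 (D2 f)` is the last entry of the derivative of the gradient -/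
lemma D2_D2 {f : E2 → ℝ} {q : E2} (h : DifferentiableAt ℝ (∇ f) q) :
    (fderiv ℝ (∇ f) q e2) 1 = D2 (D2 f) q := by
  have h1 : HasFDerivAt (fun q => (∇ f q) 1)
      ((EuclideanSpace.proj 1 : E2 →L[ℝ] ℝ).comp (fderiv ℝ (∇ f) q)) q :=
    HasFDerivAt.comp (g := fun q : E2 => q 1) q (hasFDerivAt_coord 1 _) h.hasFDerivAt
  have h2 : (fun q => (∇ f q) 1) = D2 f := by
    ext q
    exact grad_one f q
  rw [h2] at h1
  unfold D2 at h1 ⊢
  rw [h1.fderiv]
  rfl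

/-- **The leading part of the trace.** -/
theorem tr_lead {m1 m2 c : ℝ} {k : ℕ}
    (hM : ∀ᶠ p in 𝓝 (0 : E2), H.M p = !₂[m1 * p 0 + c * p 1 ^ k, m2 * p 1])
    (hm1 : m1 ≠ 0) (hm2 : m2 ≠ 0) :
    ∀ᶠ y in 𝓝 (0 : E2), ∀ (m : ℕ) (_ : 1 ≤ m) (f : E2 → ℝ) (P Ph : E2 → E2) (A : E2 ≃L[ℝ] E2),
      (∀ v, fderiv ℝ H.a (0, y) (v, 0) = A v) → (∀ q, A.symm q = H.Mt y q) →
      ContDiffAt ℝ ∞ P 0 → ContDiffAt ℝ ∞ Ph 0 → P 0 = y → Ph 0 = y → ContDiffAt ℝ ∞ f 0 →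
      (∀ᶠ q in 𝓝 0, P q - Ph q = ∇ f q) → OB (m + 1) f →
      OB (m + 1) fun q => tr2 ((A.symm : E2 →L[ℝ] E2) ∘L
          fderiv ℝ (fun q => H.a (q, P q) - H.a (q, Ph q)) q)
        + (c * k * ((k - 1 : ℕ) : ℝ) / m1) * y 1 ^ (k - 2) * (q 0 * D2 (D2 f) q) := by
  have hM' : H.M =ᶠ[𝓝 0] nfm m1 m2 c k := hM
  filter_upwards [hM'.eventually_nhds, ball_mem_nhds (0 : E2) H.r_pos] with y hy hyr m hm f P Ph A
    hA hAs hP hPh hP0 hPh0 hf hfP hfO
  have hOB1 : ∀ {Q : E2 → E2}, ContDiffAt ℝ ∞ Q 0 → Q 0 = y → OB 1 fun q => Q q - y :=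
    fun hQ hQ0 => OB.of_differentiableAt ((hQ.differentiableAt (by simp)).sub_const _)
      (by rw [hQ0, sub_self])
  have hgr : ContDiffAt ℝ ∞ (∇ f) 0 := smooth_grad hf
  have hgO : OB m (∇ f) := OB_grad' hf hfO
  have hQ : OB m fun q => P q - Ph q :=
    hgO.congr (by filter_upwards [hfP] with q hq; exact hq.symm)
  -- the decomposition
  set B : E2 →L[ℝ] (E2 →L[ℝ] E2) := fderiv ℝ (Aq H) y with hB
  set E : E2 → E2 := fun q => H.a (q, P q) - H.a (q, Ph q) with hE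
  set E0 : E2 → E2 := fun q => B (∇ f q) q with hE0
  have hR : OB (m + 2) fun q => E q - E0 q := by
    refine (a_sub H hyr (hOB1 hP hP0) (hOB1 hPh hPh0) hQ).congr ?_
    filter_upwards [hfP] with q hq
    simp only [hE, hE0, hq]
    rfl
  have hEs : ContDiffAt ℝ ∞ E 0 :=
    (curve_smooth (H.a_at (H.mem0 hyr)) hP hP0).sub (curve_smooth (H.a_at (H.mem0 hyr)) hPh hPh0)
  have hE0s : ContDiffAt ℝ ∞ E0 0 :=
    ContDiffAt.clm_apply (B.contDiff.contDiffAt.comp 0 hgr) contDiffAt_id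
  have hdR := OB.fderiv (m := m + 1) (hEs.sub hE0s) hR
  set TL : (E2 →L[ℝ] E2) →L[ℝ] ℝ := trL.comp
    (ContinuousLinearMap.compL ℝ E2 E2 E2 (A.symm : E2 →L[ℝ] E2)) with hTL
  have hTLa : ∀ L, TL L = tr2 ((A.symm : E2 →L[ℝ] E2) ∘L L) := fun L => rfl
  refine (hdR.clm_const TL).congr ?_
  filter_upwards [(hEs.of_le (m := 1) (by norm_cast)).eventually (by simp),
    (hE0s.of_le (m := 1) (by norm_cast)).eventually (by simp),
    (hgr.of_le (m := 1) (by norm_cast)).eventually (by simp)] with q h1 h2 h3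
  have h3' : DifferentiableAt ℝ (∇ f) q := h3.differentiableAt one_ne_zero
  have k1 : fderiv ℝ (fun q => E q - E0 q) q = fderiv ℝ E q - fderiv ℝ E0 q :=
    fderiv_fun_sub (h1.differentiableAt one_ne_zero) (h2.differentiableAt one_ne_zero)
  have k2 : HasFDerivAt E0 ((B (∇ f q)).comp (ContinuousLinearMap.id ℝ E2)
      + (B.comp (fderiv ℝ (∇ f) q)).flip q) q :=
    (B.hasFDerivAt.comp q h3'.hasFDerivAt).clm_apply (hasFDerivAt_id q)
  have k3 : ∀ w, fderiv ℝ E0 q w = B (∇ f q) w + B (fderiv ℝ (∇ f) q w) q := by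
    intro w
    rw [k2.fderiv]
    rfl
  have k4 : ∀ v w : E2, A.symm (B v w)
      = !₂[0, -((c * k * ((k - 1 : ℕ) : ℝ) * y 1 ^ (k - 2)) * v 1 * (w 0 / m1))] := by
    intro v w
    rw [hAs, Mt_tl H hy, hB, dAq_eq H hm1 hm2 hyr hy]
    ext i
    fin_cases i
    · simp [tl]
    · simp [tl]
      field_simp
  have k5 : TL (fderiv ℝ E0 q)
      = -((c * k * ((k - 1 : ℕ) : ℝ) / m1) * y 1 ^ (k - 2) * (q 0 * D2 (D2 f) q)) := by
    change (A.symm (fderiv ℝ E0 q e1)) 0 + (A.symm (fderiv ℝ E0 q e2)) 1 = _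
    rw [k3, k3, map_add, map_add, k4, k4, k4, k4, ← D2_D2 h3']
    simp [e2]
    ring
  rw [k1, map_sub, k5, hTLa]
  ring

theorem Mt_tl_ev {m1 m2 c : ℝ} {k : ℕ}
    (hM : ∀ᶠ p in 𝓝 (0 : E2), H.M p = !₂[m1 * p 0 + c * p 1 ^ k, m2 * p 1]) :
    ∀ᶠ y in 𝓝 (0 : E2), ∀ q, H.Mt y q = tl m1 m2 (c * k * y 1 ^ (k - 1)) q := by
  have hM' : H.M =ᶠ[𝓝 0] nfm m1 m2 c k := hM
  filter_upwards [hM'.eventually_nhds] with y hy q
  exact Mt_tl H hy q

end Vale.Agent.P207.N3.H395
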